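import Vale.Agent.Lib.P335.SplitPoincare
import Vale.Agent.Lib.P335.H23.SwitchGap

/-!
# Graphs with frozen inner parts as 0/1 tables (problem P335, simple graphs)

Fix a vertex set `U` and a realization `E0` of the degree sequence `d`.  The realizations `E`
of `d` that have the same pairs as `E0` inside `U` and inside the complement of `U`
(`SameFrozen U E0 E`) are determined by their cross part, the table
`rowOf U E : RowT U → Finset (ColT U)`, and they correspond bijectively to the tables with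
row sizes `rF d U E0` and column counts `cF d U E0` (`frozenEquiv`).  A table switch is a
switch of the chain (`adj_to_switchAdj`).

This generalises the encoding of split classes (clique inside `U`, nothing outside).
-/

namespace Vale.Agent.Lib.P335.H24

open Finset
open Classical
open Vale.Agent.Lib.P335

variable {n : ℕ}

/-- `E` and `E'` contain the same pairs inside `U` and the same pairs inside the complement
of `U`. -/
def SameFrozen (U : Finset (Fin n)) (E E' : Finset (Sym2 (Fin n))) : Prop :=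
  ∀ a b : Fin n, (a ∈ U ↔ b ∈ U) → (s(a, b) ∈ E ↔ s(a, b) ∈ E')

theorem SameFrozen.refl (U : Finset (Fin n)) (E : Finset (Sym2 (Fin n))) : SameFrozen U E E :=
  fun _ _ _ => Iff.rfl

theorem SameFrozen.symm {U : Finset (Fin n)} {E E' : Finset (Sym2 (Fin n))}
    (h : SameFrozen U E E') : SameFrozen U E' E :=
  fun a b hab => (h a b hab).symm

theorem SameFrozen.trans {U : Finset (Fin n)} {E E' E'' : Finset (Sym2 (Fin n))}
    (h : SameFrozen U E E') (h' : SameFrozen U E' E'') : SameFrozen U E E'' :=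
  fun a b hab => (h a b hab).trans (h' a b hab)

/-- A graph is determined by its frozen parts and its table. -/
theorem frozen_ext {U : Finset (Fin n)} {E E' : Finset (Sym2 (Fin n))}
    (h : SameFrozen U E E') (hrow : rowOf U E = rowOf U E') : E = E' := by
  have key : ∀ (a b : Fin n), a ∈ U → b ∈ Uᶜ → (s(a, b) ∈ E ↔ s(a, b) ∈ E') := by
    intro a b ha hb
    have := congrFun hrow ⟨a, ha⟩
    have h2 : (⟨b, hb⟩ : ColT U) ∈ rowOf U E ⟨a, ha⟩ ↔ (⟨b, hb⟩ : ColT U) ∈ rowOf U E' ⟨a, ha⟩ := by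
      rw [this]
    simpa [mem_rowOf] using h2
  ext e
  induction e using Sym2.ind with
  | _ a b =>
    by_cases ha : a ∈ U
    · by_cases hb : b ∈ U
      · exact h a b (by simp [ha, hb])
      · exact key a b ha (mem_compl.mpr hb)
    · by_cases hb : b ∈ U
      · rw [Sym2.eq_swap]
        exact key b a hb (mem_compl.mpr ha)
      · exact h a b (by simp [ha, hb])

theorem deg_row_gen (U : Finset (Fin n)) (E : Finset (Sym2 (Fin n))) (u : RowT U) :
    (nbrs E u.1).card = (nbIn E U u.1).card + (rowOf U E u).card := by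
  rw [card_nbrs_inout E U u.1]
  have h2 : nbIn E Uᶜ u.1 = (rowOf U E u).map (Function.Embedding.subtype _) := by
    ext x
    simp only [nbIn, mem_filter, mem_map, Function.Embedding.coe_subtype, rowOf, mem_univ,
      true_and, Subtype.exists, exists_and_right, exists_eq_right]
    constructor
    · rintro ⟨hx, hxE⟩
      exact ⟨hx, hxE⟩
    · rintro ⟨hx, hxE⟩
      exact ⟨hx, hxE⟩
  rw [h2, card_map]

theorem deg_col_gen (U : Finset (Fin n)) (E : Finset (Sym2 (Fin n))) (w : ColT U) :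
    (nbrs E w.1).card
      = (nbIn E Uᶜ w.1).card + (univ.filter (fun u : RowT U => w ∈ rowOf U E u)).card := by
  rw [card_nbrs_inout E U w.1, add_comm]
  have h2 : nbIn E U w.1
      = (univ.filter (fun u : RowT U => w ∈ rowOf U E u)).map (Function.Embedding.subtype _) := by
    ext x
    simp only [nbIn, mem_filter, mem_map, Function.Embedding.coe_subtype, rowOf, mem_univ,
      true_and, Subtype.exists, exists_and_right, exists_eq_right]
    constructor
    · rintro ⟨hx, hxE⟩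
      refine ⟨hx, ?_⟩
      rw [Sym2.eq_swap]
      exact hxE
    · rintro ⟨hx, hxE⟩
      refine ⟨hx, ?_⟩
      rw [Sym2.eq_swap]
      exact hxE
  rw [h2, card_map]

theorem nbIn_in_eq {U : Finset (Fin n)} {E E' : Finset (Sym2 (Fin n))} (h : SameFrozen U E E')
    {v : Fin n} (hv : v ∈ U) : nbIn E U v = nbIn E' U v := by
  ext x
  simp only [nbIn, mem_filter]
  constructor
  · rintro ⟨hx, hxE⟩
    exact ⟨hx, (h v x (by simp [hv, hx])).1 hxE⟩
  · rintro ⟨hx, hxE⟩
    exact ⟨hx, (h v x (by simp [hv, hx])).2 hxE⟩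

theorem nbIn_out_eq {U : Finset (Fin n)} {E E' : Finset (Sym2 (Fin n))} (h : SameFrozen U E E')
    {v : Fin n} (hv : v ∈ Uᶜ) : nbIn E Uᶜ v = nbIn E' Uᶜ v := by
  have hv' : v ∉ U := mem_compl.mp hv
  ext x
  simp only [nbIn, mem_filter, mem_compl]
  constructor
  · rintro ⟨hx, hxE⟩
    exact ⟨hx, (h v x (by simp [hv', hx])).1 hxE⟩
  · rintro ⟨hx, hxE⟩
    exact ⟨hx, (h v x (by simp [hv', hx])).2 hxE⟩

/-- row sizes of the tables of the class of `E0` -/
def rF (d : Fin n → ℕ) (U : Finset (Fin n)) (E0 : Finset (Sym2 (Fin n))) (u : RowT U) : ℕ :=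
  d u.1 - (nbIn E0 U u.1).card

/-- column counts of the tables of the class of `E0` -/
def cF (d : Fin n → ℕ) (U : Finset (Fin n)) (E0 : Finset (Sym2 (Fin n))) (w : ColT U) : ℕ :=
  d w.1 - (nbIn E0 Uᶜ w.1).card

theorem isTable_rowOf_gen {d : Fin n → ℕ} {U : Finset (Fin n)} {E0 E : Finset (Sym2 (Fin n))}
    (hE : IsRealization d E) (h : SameFrozen U E0 E) :
    Bip.IsTable (rF d U E0) (cF d U E0) (rowOf U E) := by
  constructor
  · intro u
    have h1 := deg_row_gen U E u
    rw [hE.2 u.1, nbIn_in_eq h.symm u.2] at h1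
    unfold rF
    omega
  · intro w
    have h1 := deg_col_gen U E w
    rw [hE.2 w.1, nbIn_out_eq h.symm w.2] at h1
    unfold cF
    omega

/-- the adjacency relation of the graph with frozen parts `E0` and table `x` -/
def relF (U : Finset (Fin n)) (E0 : Finset (Sym2 (Fin n))) (x : RowT U → Finset (ColT U))
    (a b : Fin n) : Prop :=
  ((a ∈ U ↔ b ∈ U) ∧ s(a, b) ∈ E0) ∨
    (∃ (ha : a ∈ U) (hb : b ∈ Uᶜ), (⟨b, hb⟩ : ColT U) ∈ x ⟨a, ha⟩) ∨
    (∃ (hb : b ∈ U) (ha : a ∈ Uᶜ), (⟨a, ha⟩ : ColT U) ∈ x ⟨b, hb⟩)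

theorem relF_symm (U : Finset (Fin n)) (E0 : Finset (Sym2 (Fin n)))
    (x : RowT U → Finset (ColT U)) : Std.Symm (relF U E0 x) := by
  constructor
  intro a b h
  rcases h with ⟨hab, hE⟩ | h | h
  · refine Or.inl ⟨hab.symm, ?_⟩
    rw [Sym2.eq_swap]
    exact hE
  · exact Or.inr (Or.inr h)
  · exact Or.inr (Or.inl h)

/-- the graph with frozen parts `E0` and table `x` -/
noncomputable def ofTableF (U : Finset (Fin n)) (E0 : Finset (Sym2 (Fin n)))
    (x : RowT U → Finset (ColT U)) : Finset (Sym2 (Fin n)) :=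
  univ.filter (fun e => e ∈ Sym2.fromRel (relF_symm U E0 x))

theorem mem_ofTableF {U : Finset (Fin n)} {E0 : Finset (Sym2 (Fin n))}
    {x : RowT U → Finset (ColT U)} {a b : Fin n} :
    s(a, b) ∈ ofTableF U E0 x ↔ relF U E0 x a b := by
  simp [ofTableF, Sym2.fromRel_prop]

theorem sameFrozen_ofTableF (U : Finset (Fin n)) (E0 : Finset (Sym2 (Fin n)))
    (x : RowT U → Finset (ColT U)) : SameFrozen U E0 (ofTableF U E0 x) := by
  intro a b hab
  rw [mem_ofTableF]
  constructor
  · intro h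
    exact Or.inl ⟨hab, h⟩
  · rintro (⟨_, h⟩ | ⟨ha, hb, _⟩ | ⟨hb, ha, _⟩)
    · exact h
    · exact absurd (hab.1 ha) (mem_compl.mp hb)
    · exact absurd (hab.2 hb) (mem_compl.mp ha)

theorem rowOf_ofTableF (U : Finset (Fin n)) (E0 : Finset (Sym2 (Fin n)))
    (x : RowT U → Finset (ColT U)) : rowOf U (ofTableF U E0 x) = x := by
  funext u
  ext w
  rw [mem_rowOf, mem_ofTableF]
  constructor
  · rintro (⟨hab, _⟩ | ⟨_, _, h⟩ | ⟨hb, _, _⟩)
    · exact absurd (hab.1 u.2) (mem_compl.mp w.2)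
    · exact h
    · exact absurd hb (mem_compl.mp w.2)
  · intro h
    exact Or.inr (Or.inl ⟨u.2, w.2, h⟩)

theorem loopless_ofTableF {U : Finset (Fin n)} {E0 : Finset (Sym2 (Fin n))}
    (h0 : ∀ e ∈ E0, ¬ e.IsDiag) (x : RowT U → Finset (ColT U)) :
    ∀ e ∈ ofTableF U E0 x, ¬ e.IsDiag := by
  intro e he hdiag
  induction e using Sym2.ind with
  | _ a b =>
    have hab : a = b := by simpa using hdiag
    subst hab
    rw [mem_ofTableF] at he
    rcases he with ⟨_, h⟩ | ⟨ha, hb, _⟩ | ⟨hb, ha, _⟩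
    · exact h0 _ h (by simp)
    · exact (mem_compl.mp hb) ha
    · exact (mem_compl.mp ha) hb

theorem isRealization_ofTableF {d : Fin n → ℕ} {U : Finset (Fin n)}
    {E0 : Finset (Sym2 (Fin n))} (hE0 : IsRealization d E0) {x : RowT U → Finset (ColT U)}
    (hx : Bip.IsTable (rF d U E0) (cF d U E0) x) : IsRealization d (ofTableF U E0 x) := by
  refine ⟨loopless_ofTableF hE0.1 x, ?_⟩
  intro v
  have hd := card_nbrs_inout E0 U v
  rw [hE0.2 v] at hd
  by_cases hv : v ∈ U
  · have h1 := deg_row_gen U (ofTableF U E0 x) ⟨v, hv⟩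
    rw [rowOf_ofTableF, hx.1 ⟨v, hv⟩, nbIn_in_eq (sameFrozen_ofTableF U E0 x).symm hv] at h1
    show (nbrs (ofTableF U E0 x) v).card = d v
    rw [h1]
    unfold rF
    show (nbIn E0 U v).card + (d v - (nbIn E0 U v).card) = d v
    omega
  · have hv' : v ∈ Uᶜ := mem_compl.mpr hv
    have h1 := deg_col_gen U (ofTableF U E0 x) ⟨v, hv'⟩
    rw [rowOf_ofTableF, hx.2 ⟨v, hv'⟩, nbIn_out_eq (sameFrozen_ofTableF U E0 x).symm hv'] at h1
    show (nbrs (ofTableF U E0 x) v).card = d v
    rw [h1]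
    unfold cF
    show (nbIn E0 Uᶜ v).card + (d v - (nbIn E0 Uᶜ v).card) = d v
    omega

/-- The class of `G0` (same frozen parts) is in bijection with the tables. -/
noncomputable def frozenEquiv {d : Fin n → ℕ} (U : Finset (Fin n)) (G0 : Omega d) :
    {G : Omega d // SameFrozen U G0.1 G.1} ≃ Bip.Tab (rF d U G0.1) (cF d U G0.1) where
  toFun G := ⟨rowOf U G.1.1, isTable_rowOf_gen G.1.2 G.2⟩
  invFun x := ⟨⟨ofTableF U G0.1 x.1, isRealization_ofTableF G0.2 x.2⟩,
    sameFrozen_ofTableF U G0.1 x.1⟩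
  left_inv G := Subtype.ext (Subtype.ext
    (frozen_ext ((sameFrozen_ofTableF U G0.1 _).symm.trans G.2) (rowOf_ofTableF U G0.1 _)))
  right_inv x := Subtype.ext (rowOf_ofTableF U G0.1 x.1)

theorem frozenEquiv_apply {d : Fin n → ℕ} (U : Finset (Fin n)) (G0 : Omega d)
    (G : {G : Omega d // SameFrozen U G0.1 G.1}) :
    (frozenEquiv U G0 G).1 = rowOf U G.1.1 := rfl

theorem cross_ne_same {U : Finset (Fin n)} (i : RowT U) (j : ColT U) {a b : Fin n}
    (hab : a ∈ U ↔ b ∈ U) : s(a, b) ≠ s(i.1, j.1) := by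
  intro h
  rw [Sym2.eq_iff] at h
  have hj : j.1 ∉ U := mem_compl.mp j.2
  rcases h with ⟨h1, h2⟩ | ⟨h1, h2⟩
  · rw [h1, h2] at hab
    exact hj (hab.1 i.2)
  · rw [h1, h2] at hab
    exact hj (hab.2 i.2)

/-- A table switch between the tables of two graphs with the same frozen parts is a switch of
the chain. -/
theorem adj_to_switchAdj {d : Fin n → ℕ} {U : Finset (Fin n)} (G G' : Omega d)
    (hF : SameFrozen U G.1 G'.1) (h : Bip.AdjIn univ (rowOf U G.1) (rowOf U G'.1)) :
    H23.SwitchAdj G G' := by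
  obtain ⟨i, i', j, j', -, -, hsw, hy⟩ := h
  obtain ⟨hii, hjj, h1, h2, h3, h4⟩ := hsw
  constructor
  · rintro rfl
    have hj : j ∈ rowOf U G.1 i := h1
    rw [hy, mem_swRow _ _ _ _ _ hii] at hj
    rcases hj with ⟨h, _⟩ | ⟨_, h | ⟨h, _⟩⟩ | ⟨_, h, _⟩
    · exact hii h
    · exact hjj h
    · exact h rfl
    · exact h rfl
  · rw [mem_rowOf] at h1 h2 h3 h4
    have d1 : i.1 ≠ j.1 := row_ne_col i j
    have d2 : i.1 ≠ j'.1 := row_ne_col i j'
    have d3 : i.1 ≠ i'.1 := fun h => hii (Subtype.ext h)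
    have d4 : j.1 ≠ j'.1 := fun h => hjj (Subtype.ext h)
    have d5 : j.1 ≠ i'.1 := (row_ne_col i' j).symm
    have d6 : j'.1 ≠ i'.1 := (row_ne_col i' j').symm
    refine ⟨⟨(i.1, j.1, j'.1, i'.1), d1, d2, d3, d4, d5, d6⟩, ?_⟩
    apply Subtype.ext
    show switchSet G.1 i.1 j.1 j'.1 i'.1 = G'.1
    unfold switchSet
    have h4' : s(j'.1, i'.1) ∈ G.1 := by rw [Sym2.eq_swap]; exact h4
    have h3' : s(j.1, i'.1) ∉ G.1 := by rw [Sym2.eq_swap]; exact h3
    rw [if_pos ⟨h1, h4', h2, h3'⟩]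
    apply frozen_ext
    · intro a b hab
      rw [← hF a b hab]
      have n1 := cross_ne_same i j hab
      have n2 : s(a, b) ≠ s(j'.1, i'.1) := by
        rw [Sym2.eq_swap (a := j'.1)]; exact cross_ne_same i' j' hab
      have n3 := cross_ne_same i j' hab
      have n4 : s(a, b) ≠ s(j.1, i'.1) := by
        rw [Sym2.eq_swap (a := j.1)]; exact cross_ne_same i' j hab
      simp only [mem_union, mem_sdiff, mem_insert, mem_singleton]
      tauto
    · rw [hy]
      exact rowOf_switch G.1 i i' j j' hii hjj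

end Vale.Agent.Lib.P335.H24
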