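import Vale.Agent.Lib.P335.SplitTable

/-!
# Pairs of vertices outside `U` as pairs of columns (problem P335)

The `2`-subsets of vertices that are disjoint from a vertex set `U` are the unordered pairs of
distinct columns of the tables with row set `U`; a sum over ordered pairs of distinct columns
counts each of them twice.
-/

namespace Vale.Agent.Lib.P335.H24

open Finset
open Classical
open Vale.Agent.Lib.P335

variable {n : ℕ}

/-- The pairs disjoint from `U` are the pairs inside the complement of `U`. -/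
theorem filter_disjoint_eq (U : Finset (Fin n)) :
    ((univ : Finset (Fin n)).powersetCard 2).filter (fun c => Disjoint U c)
      = Uᶜ.powersetCard 2 := by
  ext c
  rw [mem_filter, mem_powersetCard, mem_powersetCard]
  constructor
  · rintro ⟨⟨-, hc⟩, hd⟩
    refine ⟨?_, hc⟩
    intro z hz
    rw [mem_compl]
    exact fun hzU => (disjoint_left.mp hd) hzU hz
  · rintro ⟨hsub, hc⟩
    refine ⟨⟨subset_univ _, hc⟩, ?_⟩
    rw [disjoint_left]
    intro z hzU hz
    exact (mem_compl.mp (hsub hz)) hzU

/-- A sum over ordered pairs of distinct elements of `D` is twice the sum over the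
`2`-subsets of `D`. -/
theorem sum_offDiag_pairs (D : Finset (Fin n)) (g : Finset (Fin n) → ℝ) :
    ∑ x ∈ D.offDiag, g {x.1, x.2} = 2 * ∑ c ∈ D.powersetCard 2, g c := by
  have hmaps : ∀ x ∈ D.offDiag, ({x.1, x.2} : Finset (Fin n)) ∈ D.powersetCard 2 := by
    intro x hx
    rw [mem_offDiag] at hx
    rw [mem_powersetCard]
    refine ⟨?_, card_pair hx.2.2⟩
    intro z hz
    rw [mem_insert, mem_singleton] at hz
    rcases hz with rfl | rfl
    · exact hx.1
    · exact hx.2.1
  rw [← sum_fiberwise_of_maps_to hmaps, mul_sum]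
  refine sum_congr rfl fun c hc => ?_
  rw [mem_powersetCard] at hc
  obtain ⟨a, b, hab, rfl⟩ := card_eq_two.mp hc.2
  have ha : a ∈ D := hc.1 (by simp)
  have hb : b ∈ D := hc.1 (by simp)
  have hfib : (D.offDiag.filter fun x : Fin n × Fin n => ({x.1, x.2} : Finset (Fin n)) = {a, b})
      = {(a, b), (b, a)} := by
    ext ⟨x, y⟩
    rw [mem_filter, mem_offDiag, mem_insert, mem_singleton, Prod.mk.injEq, Prod.mk.injEq]
    constructor
    · rintro ⟨⟨-, -, hxy⟩, he⟩
      have hx' : x ∈ ({a, b} : Finset (Fin n)) := by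
        rw [← he]
        exact mem_insert_self _ _
      have hy' : y ∈ ({a, b} : Finset (Fin n)) := by
        rw [← he]
        exact mem_insert_of_mem (mem_singleton_self _)
      rw [mem_insert, mem_singleton] at hx' hy'
      rcases hx' with rfl | rfl <;> rcases hy' with rfl | rfl
      · exact absurd rfl hxy
      · exact Or.inl ⟨rfl, rfl⟩
      · exact Or.inr ⟨rfl, rfl⟩
      · exact absurd rfl hxy
    · rintro (⟨rfl, rfl⟩ | ⟨rfl, rfl⟩)
      · exact ⟨⟨ha, hb, hab⟩, rfl⟩
      · exact ⟨⟨hb, ha, hab.symm⟩, pair_comm _ _⟩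
  have hne : ((a, b) : Fin n × Fin n) ≠ (b, a) := by
    intro h
    exact hab (congrArg Prod.fst h)
  rw [sum_congr rfl (fun x hx => by rw [(mem_filter.mp hx).2]), hfib, sum_const, card_pair hne]
  simp

/-- **Reindexing.** The sum over ordered pairs of distinct columns is twice the sum over the
pairs of vertices disjoint from `U`. -/
theorem sum_col_pairs (U : Finset (Fin n)) (g : Finset (Fin n) → ℝ) :
    ∑ p : ColT U, ∑ q : ColT U, (if p = q then 0 else g {p.1, q.1})
      = 2 * ∑ c ∈ ((univ : Finset (Fin n)).powersetCard 2).filter (fun c => Disjoint U c),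
          g c := by
  rw [filter_disjoint_eq, ← sum_offDiag_pairs]
  have h1 : ∀ p q : ColT U, (if p = q then (0 : ℝ) else g {p.1, q.1})
      = (fun a b : Fin n => if a = b then (0 : ℝ) else g {a, b}) p.1 q.1 := by
    intro p q
    by_cases hpq : p = q
    · rw [if_pos hpq]
      show (0 : ℝ) = if p.1 = q.1 then (0 : ℝ) else g {p.1, q.1}
      rw [if_pos (congrArg Subtype.val hpq)]
    · rw [if_neg hpq]
      show g {p.1, q.1} = if p.1 = q.1 then (0 : ℝ) else g {p.1, q.1}
      rw [if_neg (fun h => hpq (Subtype.ext h))]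
  have h2 : ∀ φ : Fin n → ℝ, ∑ q : ColT U, φ q.1 = ∑ b ∈ Uᶜ, φ b := by
    intro φ
    exact Finset.sum_coe_sort Uᶜ φ
  rw [sum_congr rfl fun p _ => sum_congr rfl fun q _ => h1 p q]
  rw [sum_congr rfl fun p _ => h2 (fun b => (fun a b : Fin n => if a = b then (0 : ℝ)
    else g {a, b}) p.1 b)]
  rw [h2 (fun a => ∑ b ∈ Uᶜ, (fun a b : Fin n => if a = b then (0 : ℝ) else g {a, b}) a b)]
  rw [← sum_product']
  have h3 : Uᶜ.offDiag = (Uᶜ ×ˢ Uᶜ).filter (fun x : Fin n × Fin n => ¬ x.1 = x.2) := by
    ext x
    rw [mem_offDiag, mem_filter, mem_product]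
    tauto
  rw [h3, sum_filter]
  refine sum_congr rfl fun x _ => ?_
  by_cases hx : x.1 = x.2
  · rw [if_pos hx, if_neg (not_not.mpr hx)]
  · rw [if_neg hx, if_pos hx]

/-- The same with the constant on the other side. -/
theorem sum_disjoint_pairs (U : Finset (Fin n)) (g : Finset (Fin n) → ℝ) :
    ∑ c ∈ ((univ : Finset (Fin n)).powersetCard 2).filter (fun c => Disjoint U c), g c
      = (1 / 2) * ∑ p : ColT U, ∑ q : ColT U, (if p = q then 0 else g {p.1, q.1}) := by
  rw [sum_col_pairs]
  ring

end Vale.Agent.Lib.P335.H24
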