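import Vale.Agent.Lib.P335.Gr.Pair
import Vale.Agent.Lib.P335.Gr.Flip
import Vale.Agent.Lib.P335.Bip.ColSwapFacts

/-!
# The flip of a four-cycle as a column exchange (problem P335, simple graphs)

Fix two vertices `u ≠ w` and put `U = {u, w}`.  Through `frozenEquiv U G0` the class of `G0`
(the graphs agreeing with `G0` off `U`) is the set of tables with the two rows `u`, `w` and
the vertices outside `U` as columns.  For two further vertices `x ≠ y` the flip of the
four-cycle between `{u, w}` and `{x, y}` becomes the exchange of the columns `x`, `y` in the two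
rows, the alternating graphs are the tables moved by the exchange, and the pairs disjoint from
`U` are the pairs of distinct columns.
-/

namespace Vale.Agent.Lib.P335.H24

open Finset
open Classical
open Vale.Agent.Lib.P335

variable {n : ℕ} {d : Fin n → ℕ}

/-- the row of the vertex `u` -/
def rowL (u w : Fin n) : RowT ({u, w} : Finset (Fin n)) := ⟨u, by simp⟩

/-- the row of the vertex `w` -/
def rowR (u w : Fin n) : RowT ({u, w} : Finset (Fin n)) := ⟨w, by simp⟩

/-- the column of a vertex outside `{u, w}` -/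
def colOf {u w : Fin n} (x : Fin n) (hx : x ∉ ({u, w} : Finset (Fin n))) :
    ColT ({u, w} : Finset (Fin n)) := ⟨x, mem_compl.mpr hx⟩

theorem rowL_ne_rowR {u w : Fin n} (huw : u ≠ w) : rowL u w ≠ rowR u w :=
  fun h => huw (congrArg Subtype.val h)

theorem row_cases {u w : Fin n} (k : RowT ({u, w} : Finset (Fin n))) :
    k = rowL u w ∨ k = rowR u w := by
  have hk : (k.1 : Fin n) ∈ ({u, w} : Finset (Fin n)) := k.2
  rw [mem_insert, mem_singleton] at hk
  rcases hk with h | h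
  · exact Or.inl (Subtype.ext h)
  · exact Or.inr (Subtype.ext h)

theorem row_mem_pair {u w : Fin n} (k : RowT ({u, w} : Finset (Fin n))) :
    k ∈ ({rowL u w, rowR u w} : Finset (RowT ({u, w} : Finset (Fin n)))) := by
  rw [mem_insert, mem_singleton]
  exact row_cases k

/-- the flip stays in the class, in the form needed by `frozenEquiv` -/
theorem sameFrozen_flip {u w : Fin n} (huw : u ≠ w) (c : Finset (Fin n)) {G0 G : Omega d}
    (h : SameFrozen {u, w} G0.1 G.1) : SameFrozen {u, w} G0.1 (Gr.flip {u, w} c G).1 :=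
  h.trans (Gr.Pair.sameFrozen_of_gagree huw G.2 (Gr.flip {u, w} c G).2
    (Gr.gagree_flip_left {u, w} c G))

/-- **Alternating = one of the two table switches is available.** -/
theorem isAlt_iff_swOK {u w x y : Fin n} (huw : u ≠ w) (hxy : x ≠ y)
    (hx : x ∉ ({u, w} : Finset (Fin n))) (hy : y ∉ ({u, w} : Finset (Fin n)))
    (E : Finset (Sym2 (Fin n))) :
    Gr.IsAlt {u, w} {x, y} E ↔
      (Bip.SwOK (rowOf {u, w} E) (rowL u w) (rowR u w) (colOf x hx) (colOf y hy) ∨
        Bip.SwOK (rowOf {u, w} E) (rowL u w) (rowR u w) (colOf y hy) (colOf x hx)) := by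
  rw [Gr.isAlt_pair huw hxy]
  have hii := rowL_ne_rowR huw
  have hpq : colOf (u := u) (w := w) x hx ≠ colOf y hy := fun h => hxy (congrArg Subtype.val h)
  unfold Gr.Alt4 Bip.SwOK
  simp only [mem_rowOf]
  show (s(u, x) ∈ E ∧ s(w, y) ∈ E ∧ s(u, y) ∉ E ∧ s(w, x) ∉ E) ∨
      (s(u, y) ∈ E ∧ s(w, x) ∈ E ∧ s(u, x) ∉ E ∧ s(w, y) ∉ E) ↔
    (rowL u w ≠ rowR u w ∧ colOf x hx ≠ colOf y hy ∧ s(u, x) ∈ E ∧ s(u, y) ∉ E ∧
        s(w, x) ∉ E ∧ s(w, y) ∈ E) ∨
      (rowL u w ≠ rowR u w ∧ colOf y hy ≠ colOf x hx ∧ s(u, y) ∈ E ∧ s(u, x) ∉ E ∧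
        s(w, y) ∉ E ∧ s(w, x) ∈ E)
  have hqp := hpq.symm
  tauto

/-- **The table of the flipped edge set.** -/
theorem rowOf_flipSet_left {u w x y : Fin n} (huw : u ≠ w) (hxy : x ≠ y)
    (hx : x ∉ ({u, w} : Finset (Fin n))) (hy : y ∉ ({u, w} : Finset (Fin n)))
    {E : Finset (Sym2 (Fin n))}
    (h : Bip.SwOK (rowOf {u, w} E) (rowL u w) (rowR u w) (colOf x hx) (colOf y hy)) :
    rowOf {u, w} (Gr.flipSet {u, w} {x, y} E)
      = Bip.swRow (rowOf {u, w} E) (rowL u w) (rowR u w) (colOf x hx) (colOf y hy) := by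
  obtain ⟨hii, hjj, h1, h2, h3, h4⟩ := h
  rw [mem_rowOf] at h1 h2 h3 h4
  have h1' : s(u, x) ∈ E := h1
  have h2' : s(u, y) ∉ E := h2
  have h3' : s(w, x) ∉ E := h3
  have h4' : s(w, y) ∈ E := h4
  rw [Gr.flipSet_pair_left huw hxy ⟨h1', h4', h2', h3'⟩,
    switchSet_valid h1' (by rw [Sym2.eq_swap]; exact h4') h2' (by rw [Sym2.eq_swap]; exact h3')]
  exact rowOf_switch E (rowL u w) (rowR u w) (colOf x hx) (colOf y hy) hii hjj

theorem rowOf_flipSet_right {u w x y : Fin n} (huw : u ≠ w) (hxy : x ≠ y)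
    (hx : x ∉ ({u, w} : Finset (Fin n))) (hy : y ∉ ({u, w} : Finset (Fin n)))
    {E : Finset (Sym2 (Fin n))}
    (h : Bip.SwOK (rowOf {u, w} E) (rowL u w) (rowR u w) (colOf y hy) (colOf x hx)) :
    rowOf {u, w} (Gr.flipSet {u, w} {x, y} E)
      = Bip.swRow (rowOf {u, w} E) (rowL u w) (rowR u w) (colOf y hy) (colOf x hx) := by
  obtain ⟨hii, hjj, h1, h2, h3, h4⟩ := h
  rw [mem_rowOf] at h1 h2 h3 h4
  have h1' : s(u, y) ∈ E := h1
  have h2' : s(u, x) ∉ E := h2
  have h3' : s(w, y) ∉ E := h3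
  have h4' : s(w, x) ∈ E := h4
  rw [Gr.flipSet_pair_right huw hxy ⟨h1', h4', h2', h3'⟩,
    switchSet_valid h1' (by rw [Sym2.eq_swap]; exact h4') h2' (by rw [Sym2.eq_swap]; exact h3')]
  exact rowOf_switch E (rowL u w) (rowR u w) (colOf y hy) (colOf x hx) hii hjj

theorem pair_card {u w : Fin n} (huw : u ≠ w) : ({u, w} : Finset (Fin n)).card = 2 :=
  card_pair huw

theorem pair_disjoint {u w x y : Fin n}
    (hx : x ∉ ({u, w} : Finset (Fin n))) (hy : y ∉ ({u, w} : Finset (Fin n))) :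
    Disjoint ({u, w} : Finset (Fin n)) {x, y} := by
  rw [disjoint_right]
  intro a ha
  rw [mem_insert, mem_singleton] at ha
  rcases ha with rfl | rfl
  · exact hx
  · exact hy

/-- **The table of the flip is the column exchange of the table** (both sides are total: when
the four-cycle is not alternating both are the identity). -/
theorem frozenEquiv_flip {u w x y : Fin n} (huw : u ≠ w) (hxy : x ≠ y)
    (hx : x ∉ ({u, w} : Finset (Fin n))) (hy : y ∉ ({u, w} : Finset (Fin n)))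
    (G0 G : Omega d) (h : SameFrozen {u, w} G0.1 G.1) :
    frozenEquiv {u, w} G0 ⟨Gr.flip {u, w} {x, y} G, sameFrozen_flip huw {x, y} h⟩
      = Bip.Johnson.colSwapTab {rowL u w, rowR u w} (colOf x hx) (colOf y hy)
          (frozenEquiv {u, w} G0 ⟨G, h⟩) := by
  have hii := rowL_ne_rowR huw
  apply Subtype.ext
  rw [frozenEquiv_apply]
  show rowOf {u, w} (Gr.flip {u, w} {x, y} G).1 = _
  by_cases halt : Gr.IsAlt {u, w} {x, y} G.1
  · rw [Gr.flip_val (pair_card huw) (pair_card hxy) (pair_disjoint hx hy)]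
    rcases (isAlt_iff_swOK huw hxy hx hy G.1).mp halt with hsw | hsw
    · rw [rowOf_flipSet_left huw hxy hx hy hsw]
      have hsw' : Bip.SwOK (frozenEquiv {u, w} G0 ⟨G, h⟩).1 (rowL u w) (rowR u w)
          (colOf x hx) (colOf y hy) := hsw
      rw [Bip.Johnson.colSwapTab_val_of_swOK hsw']
      rfl
    · rw [rowOf_flipSet_right huw hxy hx hy hsw]
      have hsw' : Bip.SwOK (frozenEquiv {u, w} G0 ⟨G, h⟩).1 (rowL u w) (rowR u w)
          (colOf y hy) (colOf x hx) := hsw
      rw [Bip.Johnson.colSwapTab_val_of_swOK' hsw']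
      rfl
  · rw [Gr.flip_of_not halt]
    have hnot := (isAlt_iff_swOK huw hxy hx hy G.1).not.mp halt
    rw [not_or] at hnot
    rw [Bip.Johnson.colSwapTab_eq_self_of_not_swOK hii _ _ _ hnot.1 hnot.2]
    rfl

/-- **Alternating = moved by the column exchange.** -/
theorem isAlt_iff_moved {u w x y : Fin n} (huw : u ≠ w) (hxy : x ≠ y)
    (hx : x ∉ ({u, w} : Finset (Fin n))) (hy : y ∉ ({u, w} : Finset (Fin n)))
    (G0 G : Omega d) (h : SameFrozen {u, w} G0.1 G.1) :
    Gr.IsAlt {u, w} {x, y} G.1 ↔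
      Bip.Johnson.colSwapTab {rowL u w, rowR u w} (colOf x hx) (colOf y hy)
          (frozenEquiv {u, w} G0 ⟨G, h⟩) ≠ frozenEquiv {u, w} G0 ⟨G, h⟩ := by
  rw [Bip.Johnson.colSwapTab_ne_iff (rowL_ne_rowR huw), isAlt_iff_swOK huw hxy hx hy]
  rfl

/-- The flip read on tables: the graph of the exchanged table is the flip of the graph. -/
theorem symm_colSwapTab {u w x y : Fin n} (huw : u ≠ w) (hxy : x ≠ y)
    (hx : x ∉ ({u, w} : Finset (Fin n))) (hy : y ∉ ({u, w} : Finset (Fin n)))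
    (G0 : Omega d) (t : Bip.Tab (rF d {u, w} G0.1) (cF d {u, w} G0.1)) :
    ((frozenEquiv {u, w} G0).symm
        (Bip.Johnson.colSwapTab {rowL u w, rowR u w} (colOf x hx) (colOf y hy) t)).1
      = Gr.flip {u, w} {x, y} ((frozenEquiv {u, w} G0).symm t).1 := by
  set e := frozenEquiv {u, w} G0 with he
  have h1 := frozenEquiv_flip huw hxy hx hy G0 (e.symm t).1 (e.symm t).2
  have h2 : (⟨(e.symm t).1, (e.symm t).2⟩ : {G : Omega d // SameFrozen {u, w} G0.1 G.1})
      = e.symm t := rfl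
  rw [h2, ← he, e.apply_symm_apply] at h1
  rw [← h1, e.symm_apply_apply]

/-- Alternating graphs read on tables. -/
theorem isAlt_symm_iff {u w x y : Fin n} (huw : u ≠ w) (hxy : x ≠ y)
    (hx : x ∉ ({u, w} : Finset (Fin n))) (hy : y ∉ ({u, w} : Finset (Fin n)))
    (G0 : Omega d) (t : Bip.Tab (rF d {u, w} G0.1) (cF d {u, w} G0.1)) :
    Gr.IsAlt {u, w} {x, y} ((frozenEquiv {u, w} G0).symm t).1.1 ↔
      Bip.Johnson.colSwapTab {rowL u w, rowR u w} (colOf x hx) (colOf y hy) t ≠ t := by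
  set e := frozenEquiv {u, w} G0 with he
  have h1 := isAlt_iff_moved huw hxy hx hy G0 (e.symm t).1 (e.symm t).2
  have h2 : (⟨(e.symm t).1, (e.symm t).2⟩ : {G : Omega d // SameFrozen {u, w} G0.1 G.1})
      = e.symm t := rfl
  rw [h2, ← he, e.apply_symm_apply] at h1
  exact h1

end Vale.Agent.Lib.P335.H24
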