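import Vale.Agent.Lib.P335.H24.J2Graph
import Vale.Agent.Lib.P335.Bip.J2Table

/-!
# The pair inequality (J2) for graphs (problem P335)

For a pair `b` of vertices and `Y f = f - gavg b f`: the squared norm of `Y f` plus the
squared means of `Y f` over the alternating parts of the classes, summed over the pairs `c`
disjoint from `b`, is at most a quarter of the sum of the flip energies.  This is the two-row
table inequality `Bip.j2_table_tau` on every class of graphs agreeing off `b`.
-/

namespace Vale.Agent.Lib.P335.H24

open Finset
open Classical
open Vale.Agent.Lib.P335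

variable {n : ℕ} {d : Fin n → ℕ}

/-- **(J2) for graphs.** -/
theorem graph_J2 (b : Finset (Fin n)) (hb : b.card = 2) (f : Omega d → ℝ) :
    Bip.ip (f - Gr.gavg b f) (f - Gr.gavg b f)
        + ∑ c ∈ ((univ : Finset (Fin n)).powersetCard 2).filter (fun c => Disjoint b c),
            Gr.kap b c (f - Gr.gavg b f)
      ≤ (1 / 4) * ∑ c ∈ ((univ : Finset (Fin n)).powersetCard 2).filter
            (fun c => Disjoint b c), Gr.fenergy b c f :=
  graph_J2_of (fun u w huw _ F =>
    Bip.j2_table_tau (rowL u w) (rowR u w) (rowL_ne_rowR huw) F) b hb f

end Vale.Agent.Lib.P335.H24
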