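import Vale.Agent.Lib.P335.H24.FlipTable
import Vale.Agent.Lib.P335.H24.ColPairs

/-!
# The pair inequality (J2) for graphs from the two-row table inequality (problem P335)

For a pair `b = {u, w}` of vertices every class of graphs agreeing off `b` is, through
`frozenEquiv`, the set of all tables with two rows.  The flips of the four-cycles between `b` and
the pairs `c` disjoint from `b` are the column exchanges, so the two-row table inequality
(J2) gives the corresponding inequality for graphs, class by class.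
-/

namespace Vale.Agent.Lib.P335.H24

open Finset
open Classical
open Vale.Agent.Lib.P335

variable {n : ℕ} {d : Fin n → ℕ}

/-- Sums over the tables are sums over the class. -/
theorem sum_tab_eq {u w : Fin n} (huw : u ≠ w) (G0 : Omega d) (g : Omega d → ℝ) :
    ∑ t : Bip.Tab (rF d {u, w} G0.1) (cF d {u, w} G0.1), g ((frozenEquiv {u, w} G0).symm t).1
      = ∑ G ∈ Gr.gcls {u, w} G0, g G := by
  have hsub : ∑ k : {G : Omega d // SameFrozen {u, w} G0.1 G.1}, g k.1
      = ∑ G ∈ Gr.gcls {u, w} G0, g G :=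
    (Finset.sum_subtype (Gr.gcls {u, w} G0) (fun G => Gr.Pair.mem_gcls_pair huw G0 G) g).symm
  rw [← hsub]
  exact Equiv.sum_comp (frozenEquiv {u, w} G0).symm (fun k => g k.1)

theorem symm_mem_gcls {u w : Fin n} (huw : u ≠ w) (G0 : Omega d)
    (t : Bip.Tab (rF d {u, w} G0.1) (cF d {u, w} G0.1)) :
    ((frozenEquiv {u, w} G0).symm t).1 ∈ Gr.gcls {u, w} G0 :=
  (Gr.Pair.mem_gcls_pair huw G0 _).mpr ((frozenEquiv {u, w} G0).symm t).2

/-- The two rows are all rows: the class of a table is everything. -/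
theorem cls_eq_univ {u w : Fin n} {r : RowT ({u, w} : Finset (Fin n)) → ℕ}
    {c : ColT ({u, w} : Finset (Fin n)) → ℕ} (t : Bip.Tab r c) :
    Bip.cls {rowL u w, rowR u w} t = univ := by
  unfold Bip.cls
  apply Finset.filter_true_of_mem
  intro y _ k hk
  exact absurd (row_mem_pair k) hk

theorem card_tab_eq {u w : Fin n} (huw : u ≠ w) (G0 : Omega d) :
    ((univ : Finset (Bip.Tab (rF d {u, w} G0.1) (cF d {u, w} G0.1))).card : ℝ)
      = ((Gr.gcls {u, w} G0).card : ℝ) := by
  have h1 := sum_tab_eq huw G0 (fun _ => (1 : ℝ))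
  simpa using h1

/-- The average over the two rows is the average over the class. -/
theorem avg_tab_eq {u w : Fin n} (huw : u ≠ w) (G0 : Omega d) (f : Omega d → ℝ)
    (t : Bip.Tab (rF d {u, w} G0.1) (cF d {u, w} G0.1)) :
    Bip.avg {rowL u w, rowR u w} (fun t => f ((frozenEquiv {u, w} G0).symm t).1) t
      = Gr.gavg {u, w} f ((frozenEquiv {u, w} G0).symm t).1 := by
  rw [Bip.avg_apply, cls_eq_univ, Gr.gavg_apply,
    Gr.gcls_eq_of_mem {u, w} G0 _ (symm_mem_gcls huw G0 t), sum_tab_eq huw G0 f,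
    card_tab_eq huw G0]

/-- Alternating graphs read on tables, for two columns. -/
theorem isAlt_symm_col {u w : Fin n} (huw : u ≠ w) (G0 : Omega d)
    (p q : ColT ({u, w} : Finset (Fin n))) (hpq : p ≠ q)
    (t : Bip.Tab (rF d {u, w} G0.1) (cF d {u, w} G0.1)) :
    Gr.IsAlt {u, w} {p.1, q.1} ((frozenEquiv {u, w} G0).symm t).1.1 ↔
      Bip.Johnson.colSwapTab {rowL u w, rowR u w} p q t ≠ t :=
  isAlt_symm_iff huw (fun h => hpq (Subtype.ext h)) (mem_compl.mp p.2) (mem_compl.mp q.2) G0 t

/-- The flip read on tables, for two columns. -/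
theorem symm_colSwapTab_col {u w : Fin n} (huw : u ≠ w) (G0 : Omega d)
    (p q : ColT ({u, w} : Finset (Fin n))) (hpq : p ≠ q)
    (t : Bip.Tab (rF d {u, w} G0.1) (cF d {u, w} G0.1)) :
    ((frozenEquiv {u, w} G0).symm
        (Bip.Johnson.colSwapTab {rowL u w, rowR u w} p q t)).1
      = Gr.flip {u, w} {p.1, q.1} ((frozenEquiv {u, w} G0).symm t).1 :=
  symm_colSwapTab huw (fun h => hpq (Subtype.ext h)) (mem_compl.mp p.2) (mem_compl.mp q.2) G0 t

/-- Sums over the moved tables are sums over the alternating part of the class. -/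
theorem sum_moved_eq {u w : Fin n} (huw : u ≠ w) (G0 : Omega d)
    (p q : ColT ({u, w} : Finset (Fin n))) (hpq : p ≠ q) (g : Omega d → ℝ) :
    ∑ t ∈ univ.filter (fun t : Bip.Tab (rF d {u, w} G0.1) (cF d {u, w} G0.1) =>
        Bip.Johnson.colSwapTab {rowL u w, rowR u w} p q t ≠ t),
        g ((frozenEquiv {u, w} G0).symm t).1
      = ∑ G ∈ (Gr.gcls {u, w} G0).filter (fun G : Omega d => Gr.IsAlt {u, w} {p.1, q.1} G.1),
          g G := by
  rw [sum_filter, sum_filter,
    ← sum_tab_eq huw G0 (fun G => if Gr.IsAlt {u, w} {p.1, q.1} G.1 then g G else 0)]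
  refine sum_congr rfl fun t _ => ?_
  have h := isAlt_symm_col huw G0 p q hpq t
  by_cases hm : Bip.Johnson.colSwapTab {rowL u w, rowR u w} p q t ≠ t
  · rw [if_pos hm, if_pos (h.mpr hm)]
  · rw [if_neg hm, if_neg (fun h' => hm (h.mp h'))]

theorem card_moved_eq {u w : Fin n} (huw : u ≠ w) (G0 : Omega d)
    (p q : ColT ({u, w} : Finset (Fin n))) (hpq : p ≠ q) :
    ((univ.filter (fun t : Bip.Tab (rF d {u, w} G0.1) (cF d {u, w} G0.1) =>
        Bip.Johnson.colSwapTab {rowL u w, rowR u w} p q t ≠ t)).card : ℝ)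
      = (((Gr.gcls {u, w} G0).filter
          (fun G : Omega d => Gr.IsAlt {u, w} {p.1, q.1} G.1)).card : ℝ) := by
  have h1 := sum_moved_eq huw G0 p q hpq (fun _ => (1 : ℝ))
  simpa using h1

/-- On the class of `G0` the alternating part of the class of `G` is that of `G0`. -/
theorem altCls_eq {b c : Finset (Fin n)} (G0 G : Omega d) (hG : G ∈ Gr.gcls b G0) :
    Gr.altCls b c G = (Gr.gcls b G0).filter (fun G' : Omega d => Gr.IsAlt b c G'.1) := by
  unfold Gr.altCls
  rw [Gr.gcls_eq_of_mem b G0 G hG]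

/-- The class sum of the squared means over the alternating parts. -/
noncomputable def kapCls (b c : Finset (Fin n)) (G0 : Omega d) (g : Omega d → ℝ) : ℝ :=
  ∑ G ∈ Gr.gcls b G0, if Gr.IsAlt b c G.1 then
    ((∑ G' ∈ Gr.altCls b c G, g G') / ((Gr.altCls b c G).card : ℝ)) ^ 2 else 0

/-- The class sum of the flip differences. -/
noncomputable def fenCls (b c : Finset (Fin n)) (G0 : Omega d) (f : Omega d → ℝ) : ℝ :=
  ∑ G ∈ Gr.gcls b G0, (f G - f (Gr.flip b c G)) ^ 2

/-- The table form of the squared means is the class sum. -/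
theorem kap_tab_eq {u w : Fin n} (huw : u ≠ w) (G0 : Omega d)
    (p q : ColT ({u, w} : Finset (Fin n))) (hpq : p ≠ q) (f : Omega d → ℝ) :
    ∑ t ∈ univ.filter (fun t : Bip.Tab (rF d {u, w} G0.1) (cF d {u, w} G0.1) =>
        Bip.Johnson.colSwapTab {rowL u w, rowR u w} p q t ≠ t),
        ((∑ y ∈ (Bip.cls {rowL u w, rowR u w} t).filter
              (fun y => Bip.Johnson.colSwapTab {rowL u w, rowR u w} p q y ≠ y),
            ((fun t => f ((frozenEquiv {u, w} G0).symm t).1) y
              - Bip.avg {rowL u w, rowR u w}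
                  (fun t => f ((frozenEquiv {u, w} G0).symm t).1) y))
          / (((Bip.cls {rowL u w, rowR u w} t).filter
              (fun y => Bip.Johnson.colSwapTab {rowL u w, rowR u w} p q y ≠ y)).card : ℝ)) ^ 2
      = kapCls {u, w} {p.1, q.1} G0 (fun G => f G - Gr.gavg {u, w} f G) := by
  set S : ℝ := ∑ G ∈ (Gr.gcls {u, w} G0).filter
      (fun G : Omega d => Gr.IsAlt {u, w} {p.1, q.1} G.1), (f G - Gr.gavg {u, w} f G) with hS
  set m : ℝ := (((Gr.gcls {u, w} G0).filter
      (fun G : Omega d => Gr.IsAlt {u, w} {p.1, q.1} G.1)).card : ℝ) with hm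
  have hL : ∀ t : Bip.Tab (rF d {u, w} G0.1) (cF d {u, w} G0.1),
      ((∑ y ∈ (Bip.cls {rowL u w, rowR u w} t).filter
              (fun y => Bip.Johnson.colSwapTab {rowL u w, rowR u w} p q y ≠ y),
            ((fun t => f ((frozenEquiv {u, w} G0).symm t).1) y
              - Bip.avg {rowL u w, rowR u w}
                  (fun t => f ((frozenEquiv {u, w} G0).symm t).1) y))
          / (((Bip.cls {rowL u w, rowR u w} t).filter
              (fun y => Bip.Johnson.colSwapTab {rowL u w, rowR u w} p q y ≠ y)).card : ℝ)) ^ 2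
        = (fun _ : Omega d => (S / m) ^ 2) ((frozenEquiv {u, w} G0).symm t).1 := by
    intro t
    rw [cls_eq_univ, card_moved_eq huw G0 p q hpq]
    have h1 : ∑ y ∈ univ.filter (fun y : Bip.Tab (rF d {u, w} G0.1) (cF d {u, w} G0.1) =>
          Bip.Johnson.colSwapTab {rowL u w, rowR u w} p q y ≠ y),
          ((fun t => f ((frozenEquiv {u, w} G0).symm t).1) y
            - Bip.avg {rowL u w, rowR u w}
                (fun t => f ((frozenEquiv {u, w} G0).symm t).1) y) = S := by
      rw [hS, ← sum_moved_eq huw G0 p q hpq (fun G => f G - Gr.gavg {u, w} f G)]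
      refine sum_congr rfl fun y _ => ?_
      rw [avg_tab_eq huw G0 f y]
    rw [h1]
  rw [sum_congr rfl fun t _ => hL t, sum_moved_eq huw G0 p q hpq (fun _ => (S / m) ^ 2)]
  unfold kapCls
  rw [← sum_filter]
  refine sum_congr rfl fun G hG => ?_
  rw [altCls_eq G0 G (mem_filter.mp hG).1]

/-- The table form of the flip differences is the class sum. -/
theorem fen_tab_eq {u w : Fin n} (huw : u ≠ w) (G0 : Omega d)
    (p q : ColT ({u, w} : Finset (Fin n))) (hpq : p ≠ q) (f : Omega d → ℝ) :
    ∑ t : Bip.Tab (rF d {u, w} G0.1) (cF d {u, w} G0.1),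
        ((fun t => f ((frozenEquiv {u, w} G0).symm t).1) t
          - (fun t => f ((frozenEquiv {u, w} G0).symm t).1)
              (Bip.Johnson.colSwapTab {rowL u w, rowR u w} p q t)) ^ 2
      = fenCls {u, w} {p.1, q.1} G0 f := by
  unfold fenCls
  rw [← sum_tab_eq huw G0 (fun G => (f G - f (Gr.flip {u, w} {p.1, q.1} G)) ^ 2)]
  refine sum_congr rfl fun t _ => ?_
  show (f ((frozenEquiv {u, w} G0).symm t).1
      - f ((frozenEquiv {u, w} G0).symm
          (Bip.Johnson.colSwapTab {rowL u w, rowR u w} p q t)).1) ^ 2 = _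
  rw [symm_colSwapTab_col huw G0 p q hpq t]

/-- **The pair inequality on one class**, from the two-row table inequality. -/
theorem class_J2 {u w : Fin n} (huw : u ≠ w) (G0 : Omega d) (f : Omega d → ℝ)
    (hT : ∑ t : Bip.Tab (rF d {u, w} G0.1) (cF d {u, w} G0.1),
          ((fun t => f ((frozenEquiv {u, w} G0).symm t).1) t
            - Bip.avg {rowL u w, rowR u w}
                (fun t => f ((frozenEquiv {u, w} G0).symm t).1) t) ^ 2
        + (1 / 2) * ∑ p : ColT ({u, w} : Finset (Fin n)), ∑ q : ColT ({u, w} : Finset (Fin n)),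
            (if p = q then 0 else
              ∑ t ∈ univ.filter (fun t : Bip.Tab (rF d {u, w} G0.1) (cF d {u, w} G0.1) =>
                  Bip.Johnson.colSwapTab {rowL u w, rowR u w} p q t ≠ t),
                ((∑ y ∈ (Bip.cls {rowL u w, rowR u w} t).filter
                      (fun y => Bip.Johnson.colSwapTab {rowL u w, rowR u w} p q y ≠ y),
                    ((fun t => f ((frozenEquiv {u, w} G0).symm t).1) y
                      - Bip.avg {rowL u w, rowR u w}
                          (fun t => f ((frozenEquiv {u, w} G0).symm t).1) y))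
                  / (((Bip.cls {rowL u w, rowR u w} t).filter
                      (fun y => Bip.Johnson.colSwapTab {rowL u w, rowR u w} p q y ≠ y)).card
                        : ℝ)) ^ 2)
        ≤ (1 / 8) * ∑ p : ColT ({u, w} : Finset (Fin n)), ∑ q : ColT ({u, w} : Finset (Fin n)),
            (if p = q then 0 else
              ∑ t : Bip.Tab (rF d {u, w} G0.1) (cF d {u, w} G0.1),
                ((fun t => f ((frozenEquiv {u, w} G0).symm t).1) t
                  - (fun t => f ((frozenEquiv {u, w} G0).symm t).1)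
                      (Bip.Johnson.colSwapTab {rowL u w, rowR u w} p q t)) ^ 2)) :
    ∑ G ∈ Gr.gcls {u, w} G0, (f G - Gr.gavg {u, w} f G) ^ 2
        + ∑ c ∈ ((univ : Finset (Fin n)).powersetCard 2).filter
              (fun c => Disjoint ({u, w} : Finset (Fin n)) c),
            kapCls {u, w} c G0 (fun G => f G - Gr.gavg {u, w} f G)
      ≤ (1 / 4) * ∑ c ∈ ((univ : Finset (Fin n)).powersetCard 2).filter
              (fun c => Disjoint ({u, w} : Finset (Fin n)) c), fenCls {u, w} c G0 f := by
  have h1 : ∑ t : Bip.Tab (rF d {u, w} G0.1) (cF d {u, w} G0.1),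
        ((fun t => f ((frozenEquiv {u, w} G0).symm t).1) t
          - Bip.avg {rowL u w, rowR u w}
              (fun t => f ((frozenEquiv {u, w} G0).symm t).1) t) ^ 2
      = ∑ G ∈ Gr.gcls {u, w} G0, (f G - Gr.gavg {u, w} f G) ^ 2 := by
    rw [← sum_tab_eq huw G0 (fun G => (f G - Gr.gavg {u, w} f G) ^ 2)]
    refine sum_congr rfl fun t _ => ?_
    rw [avg_tab_eq huw G0 f t]
  have h2 : ∑ p : ColT ({u, w} : Finset (Fin n)), ∑ q : ColT ({u, w} : Finset (Fin n)),
        (if p = q then 0 else
          ∑ t ∈ univ.filter (fun t : Bip.Tab (rF d {u, w} G0.1) (cF d {u, w} G0.1) =>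
              Bip.Johnson.colSwapTab {rowL u w, rowR u w} p q t ≠ t),
            ((∑ y ∈ (Bip.cls {rowL u w, rowR u w} t).filter
                  (fun y => Bip.Johnson.colSwapTab {rowL u w, rowR u w} p q y ≠ y),
                ((fun t => f ((frozenEquiv {u, w} G0).symm t).1) y
                  - Bip.avg {rowL u w, rowR u w}
                      (fun t => f ((frozenEquiv {u, w} G0).symm t).1) y))
              / (((Bip.cls {rowL u w, rowR u w} t).filter
                  (fun y => Bip.Johnson.colSwapTab {rowL u w, rowR u w} p q y ≠ y)).card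
                    : ℝ)) ^ 2)
      = 2 * ∑ c ∈ ((univ : Finset (Fin n)).powersetCard 2).filter
              (fun c => Disjoint ({u, w} : Finset (Fin n)) c),
            kapCls {u, w} c G0 (fun G => f G - Gr.gavg {u, w} f G) := by
    rw [← sum_col_pairs {u, w}
      (fun c => kapCls {u, w} c G0 (fun G => f G - Gr.gavg {u, w} f G))]
    refine sum_congr rfl fun p _ => sum_congr rfl fun q _ => ?_
    by_cases hpq : p = q
    · rw [if_pos hpq, if_pos hpq]
    · rw [if_neg hpq, if_neg hpq]
      exact kap_tab_eq huw G0 p q hpq f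
  have h3 : ∑ p : ColT ({u, w} : Finset (Fin n)), ∑ q : ColT ({u, w} : Finset (Fin n)),
        (if p = q then 0 else
          ∑ t : Bip.Tab (rF d {u, w} G0.1) (cF d {u, w} G0.1),
            ((fun t => f ((frozenEquiv {u, w} G0).symm t).1) t
              - (fun t => f ((frozenEquiv {u, w} G0).symm t).1)
                  (Bip.Johnson.colSwapTab {rowL u w, rowR u w} p q t)) ^ 2)
      = 2 * ∑ c ∈ ((univ : Finset (Fin n)).powersetCard 2).filter
              (fun c => Disjoint ({u, w} : Finset (Fin n)) c), fenCls {u, w} c G0 f := by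
    rw [← sum_col_pairs {u, w} (fun c => fenCls {u, w} c G0 f)]
    refine sum_congr rfl fun p _ => sum_congr rfl fun q _ => ?_
    by_cases hpq : p = q
    · rw [if_pos hpq, if_pos hpq]
    · rw [if_neg hpq, if_neg hpq]
      exact fen_tab_eq huw G0 p q hpq f
  rw [h1, h2, h3] at hT
  linarith

/-- **(J2) for graphs**, from the two-row table inequality on every pair class. -/
theorem graph_J2_of
    (hT : ∀ (u w : Fin n) (_ : u ≠ w) (G0 : Omega d)
      (F : Bip.Tab (rF d {u, w} G0.1) (cF d {u, w} G0.1) → ℝ),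
      ∑ t : Bip.Tab (rF d {u, w} G0.1) (cF d {u, w} G0.1),
          (F t - Bip.avg {rowL u w, rowR u w} F t) ^ 2
        + (1 / 2) * ∑ p : ColT ({u, w} : Finset (Fin n)), ∑ q : ColT ({u, w} : Finset (Fin n)),
            (if p = q then 0 else
              ∑ t ∈ univ.filter (fun t : Bip.Tab (rF d {u, w} G0.1) (cF d {u, w} G0.1) =>
                  Bip.Johnson.colSwapTab {rowL u w, rowR u w} p q t ≠ t),
                ((∑ y ∈ (Bip.cls {rowL u w, rowR u w} t).filter
                      (fun y => Bip.Johnson.colSwapTab {rowL u w, rowR u w} p q y ≠ y),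
                    (F y - Bip.avg {rowL u w, rowR u w} F y))
                  / (((Bip.cls {rowL u w, rowR u w} t).filter
                      (fun y => Bip.Johnson.colSwapTab {rowL u w, rowR u w} p q y ≠ y)).card
                        : ℝ)) ^ 2)
        ≤ (1 / 8) * ∑ p : ColT ({u, w} : Finset (Fin n)), ∑ q : ColT ({u, w} : Finset (Fin n)),
            (if p = q then 0 else
              ∑ t : Bip.Tab (rF d {u, w} G0.1) (cF d {u, w} G0.1),
                (F t - F (Bip.Johnson.colSwapTab {rowL u w, rowR u w} p q t)) ^ 2))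
    (b : Finset (Fin n)) (hb : b.card = 2) (f : Omega d → ℝ) :
    Bip.ip (f - Gr.gavg b f) (f - Gr.gavg b f)
        + ∑ c ∈ ((univ : Finset (Fin n)).powersetCard 2).filter (fun c => Disjoint b c),
            Gr.kap b c (f - Gr.gavg b f)
      ≤ (1 / 4) * ∑ c ∈ ((univ : Finset (Fin n)).powersetCard 2).filter
            (fun c => Disjoint b c), Gr.fenergy b c f := by
  obtain ⟨u, w, huw, rfl⟩ := card_eq_two.mp hb
  set P : Finset (Finset (Fin n)) := ((univ : Finset (Fin n)).powersetCard 2).filter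
    (fun c => Disjoint ({u, w} : Finset (Fin n)) c) with hP
  -- the two sides as sums over all graphs
  have hL : Bip.ip (f - Gr.gavg {u, w} f) (f - Gr.gavg {u, w} f)
        + ∑ c ∈ P, Gr.kap {u, w} c (f - Gr.gavg {u, w} f)
      = ∑ G : Omega d, ((f G - Gr.gavg {u, w} f G) ^ 2
          + ∑ c ∈ P, if Gr.IsAlt {u, w} c G.1 then
              ((∑ G' ∈ Gr.altCls {u, w} c G, (f G' - Gr.gavg {u, w} f G'))
                / ((Gr.altCls {u, w} c G).card : ℝ)) ^ 2 else 0) := by
    rw [sum_add_distrib, sum_comm]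
    congr 1
    · unfold Bip.ip
      refine sum_congr rfl fun G _ => ?_
      rw [Pi.sub_apply, sq]
    · refine sum_congr rfl fun c _ => ?_
      unfold Gr.kap
      rw [sum_filter]
      rfl
  have hR : (1 / 4) * ∑ c ∈ P, Gr.fenergy {u, w} c f
      = ∑ G : Omega d, (1 / 4) * ∑ c ∈ P, (f G - f (Gr.flip {u, w} c G)) ^ 2 := by
    rw [← mul_sum, sum_comm]
    rfl
  rw [hL, hR]
  apply Gr.Pair.sum_le_of_classes (Gr.gcls {u, w}) (Gr.self_mem_gcls {u, w})
    (fun a b hb => Gr.gcls_eq_of_mem {u, w} a b hb)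
  intro G0
  have hc := class_J2 huw G0 f (hT u w huw G0 (fun t => f ((frozenEquiv {u, w} G0).symm t).1))
  rw [sum_add_distrib, ← mul_sum]
  have e1 : ∑ G ∈ Gr.gcls {u, w} G0, ∑ c ∈ P, (if Gr.IsAlt {u, w} c G.1 then
        ((∑ G' ∈ Gr.altCls {u, w} c G, (f G' - Gr.gavg {u, w} f G'))
          / ((Gr.altCls {u, w} c G).card : ℝ)) ^ 2 else 0)
      = ∑ c ∈ P, kapCls {u, w} c G0 (fun G => f G - Gr.gavg {u, w} f G) := by
    rw [sum_comm]
    rfl
  have e2 : ∑ G ∈ Gr.gcls {u, w} G0, ∑ c ∈ P, (f G - f (Gr.flip {u, w} c G)) ^ 2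
      = ∑ c ∈ P, fenCls {u, w} c G0 f := by
    rw [sum_comm]
    rfl
  rw [e1, e2]
  exact hc

end Vale.Agent.Lib.P335.H24
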